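import Vale.Agent.P066.Final

namespace Vale.Agent.Results.P066.BandwidthTwo

open Vale.Agent.P066

/-- Coefficientwise elementary positivity for natural unit interval graphs of bandwidth at most
two: if `h` is a weakly increasing map with `i ≤ h i ≤ i + 2`, there are polynomials
`c λ ∈ ℕ[q]`, one for each partition `λ` of `n`, with
`χ_G = ∑ λ, c λ (q) e_λ` in every number `N` of variables. -/
theorem result {n : ℕ} (h : Fin n → Fin n) (hmono : Monotone h) (hle : ∀ i, i ≤ h i)
    (hband : ∀ i, (h i : ℕ) ≤ (i : ℕ) + 2) :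
    ∃ c : Nat.Partition n → Polynomial ℕ, ∀ N : ℕ,
      chromQ h N = ∑ lam : Nat.Partition n,
        MvPolynomial.C ((c lam).map (Nat.castRingHom ℤ)) *
          (lam.parts.map (fun k => MvPolynomial.esymm (Fin N) (Polynomial ℤ) k)).prod := by
  obtain ⟨c, hc⟩ := ((main_cones n).1 (dOf h) (val_dOf h hmono hle hband)).exists_coeff
  refine ⟨c, fun N => ?_⟩
  rw [chrom_eq h hle N, hc N]
  rfl

end Vale.Agent.Results.P066.BandwidthTwo
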